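import Vale.Agent.P254.SP.IfaceA

/-!
P254, block SP, second part of the frozen interface (captain helper843), on top of `SP/IfaceA.lean`
(helper937): first chaos of `G`, column quantities in the eigenframe, the dual (sup) form of the
variance, the integrations by parts, the budgets.

Conventions.  `M = hess φ = U diag (L s) Uᵀ`, `G = U diag s Uᵀ`, `A_a = E ∂_a G`,
`F = G - Σ z_a A_a`, `F_a = ∂_a G - A_a`, `K = Σ A_a²`, `Z = Σ F_a A_a`.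
For a vector `v` its frame coordinates are `Uᵀ v`; `xx U e z i = (Uᵀ e)_i`, `col U B e z i = (Uᵀ (B z) e)_i`.
`kap f f' U s a v z i = Σ_j (f[s_i,s_j] - f'(s_i)) (Uᵀ ∂_a G U)_ij (Uᵀ v)_j`.
-/

open MeasureTheory
open scoped Topology

namespace Vale.Agent.P254.SP

open Vale.Agent.P227.M Vale.Agent.P254.S

variable {n : ℕ}

/-! ### definitions -/

/-- frame coordinates of a constant vector -/
noncomputable def xx (U : E n → Matrix (Fin n) (Fin n) ℝ) (e : Fin n → ℝ) (z : E n) (i : Fin n) : ℝ :=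
  ((U z).transpose.mulVec e) i

/-- frame coordinates of `B(z) e` -/
noncomputable def col (U B : E n → Matrix (Fin n) (Fin n) ℝ) (e : Fin n → ℝ) (z : E n)
    (i : Fin n) : ℝ := ((U z).transpose.mulVec ((B z).mulVec e)) i

/-- frame coordinates of a vector field `w` (given by its components) -/
noncomputable def fr (U : E n → Matrix (Fin n) (Fin n) ℝ) (w : Fin n → E n → ℝ) (z : E n)
    (i : Fin n) : ℝ := ((U z).transpose.mulVec (fun j => w j z)) i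

/-- first chaos coefficients `A_a = E ∂_a G` -/
noncomputable def AA (U : E n → Matrix (Fin n) (Fin n) ℝ) (s : E n → Fin n → ℝ) (a : Fin n) :
    Matrix (Fin n) (Fin n) ℝ := fun i j => Ex Q (fun z => pdM a (GG U s) z i j)

/-- `F = G - Σ z_a A_a` -/
noncomputable def FF (U : E n → Matrix (Fin n) (Fin n) ℝ) (s : E n → Fin n → ℝ) (z : E n) :
    Matrix (Fin n) (Fin n) ℝ := GG U s z - ∑ a, z a • AA U s a

/-- `F_a = ∂_a G - A_a` -/
noncomputable def Fa (U : E n → Matrix (Fin n) (Fin n) ℝ) (s : E n → Fin n → ℝ) (a : Fin n)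
    (z : E n) : Matrix (Fin n) (Fin n) ℝ := pdM a (GG U s) z - AA U s a

/-- `K = Σ A_a²` -/
noncomputable def KK (U : E n → Matrix (Fin n) (Fin n) ℝ) (s : E n → Fin n → ℝ) :
    Matrix (Fin n) (Fin n) ℝ := ∑ a, AA U s a * AA U s a

/-- `Z = Σ F_a A_a` -/
noncomputable def ZZ (U : E n → Matrix (Fin n) (Fin n) ℝ) (s : E n → Fin n → ℝ) (z : E n) :
    Matrix (Fin n) (Fin n) ℝ := ∑ a, Fa U s a z * AA U s a

/-- commutator kernel of `f` applied to a constant vector `v` -/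
noncomputable def kap (f f' : ℝ → ℝ) (U : E n → Matrix (Fin n) (Fin n) ℝ) (s : E n → Fin n → ℝ)
    (a : Fin n) (v : Fin n → ℝ) (z : E n) (i : Fin n) : ℝ :=
  ∑ j, (dd f f' (s z i) (s z j) - f' (s z i)) * uu U s a z i j * xx U v z j

/-- the column function `⟨e, ∇φ⟩` -/
noncomputable def fe (φ : E n → ℝ) (e : Fin n → ℝ) (z : E n) : ℝ := ∑ i, e i * pd i φ z

/-- bounded Lipschitz vector fields -/
def BLip (w : Fin n → E n → ℝ) : Prop :=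
  ∃ K : NNReal, ∀ i, LipschitzWith K (w i) ∧ ∀ z, |w i z| ≤ K

/-- `Υ_e = 2 E⟨e,t(G)e⟩ - E|Re|² - E|D(Re)|²` -/
noncomputable def Ups (P : F1) (U : E n → Matrix (Fin n) (Fin n) ℝ) (s : E n → Fin n → ℝ)
    (e : Fin n → ℝ) : ℝ :=
  2 * Ex Q (fun z => ∑ i, P.t (s z i) * xx U e z i ^ 2)
    - Ex Q (fun z => ∑ i, P.r (s z i) ^ 2 * xx U e z i ^ 2)
    - Ex Q (fun z => ∑ a, ∑ i, ((pdM a (fc U s P.r) z).mulVec e i) ^ 2)

/-- `L(w) = E⟨Me,w⟩ - E⟨Re,w⟩ - E⟨D(Re),Dw⟩` -/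
noncomputable def LL (P : F1) (φ : E n → ℝ) (U : E n → Matrix (Fin n) (Fin n) ℝ)
    (s : E n → Fin n → ℝ) (e : Fin n → ℝ) (w : Fin n → E n → ℝ) : ℝ :=
  Ex Q (fun z => ∑ i, ((hess φ z).mulVec e i - (fc U s P.r z).mulVec e i) * w i z)
    - Ex Q (fun z => ∑ a, ∑ i, (pdM a (fc U s P.r) z).mulVec e i * pd a (w i) z)

/-- the vector field `a_e = (X - R) e` of the trial `Y_a = r'(G) A_a` in the frame -/
noncomputable def ae (P : F1) (U : E n → Matrix (Fin n) (Fin n) ℝ) (s : E n → Fin n → ℝ)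
    (q : ℝ) (e : Fin n → ℝ) (z : E n) (i : Fin n) : ℝ :=
  P.r' (s z i) * col U (FF U s) e z i + (q - 1) * P.r'' (s z i) * xx U e z i
    + P.r'' (s z i) * col U (ZZ U s) e z i
    + ∑ a, kap P.r' P.r'' U s a ((AA U s a).mulVec e) z i

/-- `b_{a,e} = (D_a R - Y_a) e` in the frame -/
noncomputable def be (P : F1) (U : E n → Matrix (Fin n) (Fin n) ℝ) (s : E n → Fin n → ℝ)
    (e : Fin n → ℝ) (a : Fin n) (z : E n) (i : Fin n) : ℝ :=
  P.r' (s z i) * col U (Fa U s a) e z i + kap P.r P.r' U s a e z i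

/-! ### statements -/

/-- all data of one potential in the frame -/
structure Dat (P : F1) (φ V : E n → ℝ) (a b M κ : ℝ) (U : E n → Matrix (Fin n) (Fin n) ℝ)
    (s : E n → Fin n → ℝ) : Prop where
  bp : BP φ V a b M κ
  fr : Fr P φ U s

/-- **SP-DK** functional calculus: `f(G)` is bounded Lipschitz, independent choice of frame,
`∂_a f(G) = U (f[s_i,s_j] (Uᵀ ∂_a G U)_ij) Uᵀ` almost everywhere -/
def StmtDK : Prop := ∀ (P : F1) (n : ℕ) (φ V : E n → ℝ) (a b M κ : ℝ)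
  (U : E n → Matrix (Fin n) (Fin n) ℝ) (s : E n → Fin n → ℝ), Dat P φ V a b M κ U s →
  ∀ f f' : ℝ → ℝ, (∀ x, HasDerivAt f (f' x) x) → Continuous f' →
    (∃ K : NNReal, ∀ i j, LipschitzWith K (fun z => fc U s f z i j) ∧ ∀ z, |fc U s f z i j| ≤ K) ∧
    ∀ k : Fin n, ∀ᵐ z ∂(volume : Measure (E n)), (∀ i j, DifferentiableAt ℝ (fun y => fc U s f y i j) z) ∧
      pdM k (fc U s f) z = U z * Matrix.of (fun i j => dd f f' (s z i) (s z j) * uu U s k z i j)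
        * (U z).transpose

/-- **SP-MEAS** measurability of kernel expressions in the (arbitrarily chosen) eigenframe -/
def StmtMeas : Prop := ∀ (P : F1) (n : ℕ) (φ V : E n → ℝ) (a b M κ : ℝ)
  (U : E n → Matrix (Fin n) (Fin n) ℝ) (s : E n → Fin n → ℝ), Dat P φ V a b M κ U s →
  (∃ R : ℝ, ∀ z i, |s z i| ≤ R) ∧
  (∃ R : ℝ, ∀ k z i j, |pdM k (GG U s) z i j| ≤ R ∧ |uu U s k z i j| ≤ R) ∧
  (∀ k z, (pdM k (GG U s) z).IsSymm) ∧
  (∀ k i j, Measurable (fun z => pdM k (GG U s) z i j)) ∧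
  ∀ c : ℝ → ℝ → ℝ, Continuous (Function.uncurry c) →
    ∀ B C : E n → Matrix (Fin n) (Fin n) ℝ, (∀ i j, Measurable (fun z => B z i j)) →
    (∀ i j, Measurable (fun z => C z i j)) →
    Measurable (fun z => ∑ i, ∑ j, c (s z i) (s z j) * ((U z).transpose * B z * U z) i j
      * ((U z).transpose * C z * U z) i j)

/-- **SP-DUAL** abstract sup form of the variance, test functions `C^∞` with bounded derivatives -/
def StmtDual : Prop := ∀ (n : ℕ) (f : E n → ℝ) (K : NNReal) (C : ℝ), ContDiff ℝ 1 f →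
  (∀ i, LipschitzWith K (pd i f)) → (∀ i z, |pd i f z| ≤ K) →
  (∀ v : E n → ℝ, ContDiff ℝ ⊤ v → (∀ k : ℕ, 1 ≤ k → ∃ B : ℝ, ∀ x, ‖iteratedFDeriv ℝ k v x‖ ≤ B) →
    2 * Ex Q (fun z => ∑ i, pd i f z * pd i v z) - Ex Q (fun z => ∑ i, pd i v z ^ 2)
      - Ex Q (fun z => ∑ a, ∑ i, pd a (pd i v) z ^ 2) ≤ C) →
  Ex Q (fun z => f z ^ 2) - (Ex Q f) ^ 2 ≤ C

/-- **SP-VAR** `Var ⟨e,∇φ⟩ ≤ Υ_e + sup_w { 2 L(w) - E|w|² - E|Dw|² }` -/
def StmtVar : Prop := ∀ (P : F1) (n : ℕ) (φ V : E n → ℝ) (a b M κ : ℝ)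
  (U : E n → Matrix (Fin n) (Fin n) ℝ) (s : E n → Fin n → ℝ), Dat P φ V a b M κ U s →
  ∀ (e : Fin n → ℝ) (C : ℝ),
  (∀ w : Fin n → E n → ℝ, BLip w → 2 * LL P φ U s e w - Ex Q (fun z => ∑ i, w i z ^ 2)
      - Ex Q (fun z => ∑ k, ∑ i, pd k (w i) z ^ 2) ≤ C) →
  Ex Q (fun z => fe φ e z ^ 2) - (Ex Q (fe φ e)) ^ 2 ≤ Ups P U s e + C

/-- **SP-BYP1** formula of `L(w)` -/
def StmtByp1 : Prop := ∀ (P : F1) (n : ℕ) (φ V : E n → ℝ) (a b M κ : ℝ)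
  (U : E n → Matrix (Fin n) (Fin n) ℝ) (s : E n → Fin n → ℝ), Dat P φ V a b M κ U s →
  ∀ (e : Fin n → ℝ) (q : ℝ), (KK U s).mulVec e = q • e → ∀ w : Fin n → E n → ℝ, BLip w →
  LL P φ U s e w = Ex Q (fun z => ∑ i, ae P U s q e z i * fr U w z i)
    - Ex Q (fun z => ∑ k, ∑ i, be P U s e k z i * fr U (fun j => pd k (w j)) z i)

/-- **SP-ST** Stein identity for `p(G)`:
`E⟨e,p(G)Ge⟩ = E⟨p(G)e,Fe⟩ + E⟨e,p'(G)(q+Z)e⟩ + comm_p` -/
def StmtST : Prop := ∀ (P : F1) (n : ℕ) (φ V : E n → ℝ) (a b M κ : ℝ)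
  (U : E n → Matrix (Fin n) (Fin n) ℝ) (s : E n → Fin n → ℝ), Dat P φ V a b M κ U s →
  ∀ p p' : ℝ → ℝ, (∀ x, HasDerivAt p (p' x) x) → Continuous p' →
  ∀ (e : Fin n → ℝ) (q : ℝ), (KK U s).mulVec e = q • e →
  Ex Q (fun z => ∑ i, p (s z i) * s z i * xx U e z i ^ 2)
    = Ex Q (fun z => ∑ i, p (s z i) * xx U e z i * col U (FF U s) e z i)
      + Ex Q (fun z => ∑ i, p' (s z i) * xx U e z i * (q * xx U e z i + col U (ZZ U s) e z i))
      + Ex Q (fun z => ∑ k, ∑ i, xx U e z i * kap p p' U s k ((AA U s k).mulVec e) z i)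

/-- **SP-LIN** the linear identities (position `E G = 0`): `E⟨e,Ge⟩ = E⟨e,Fe⟩ = E⟨e,Ze⟩ = 0`,
`E⟨Ge,Fe⟩ = E|Fe|²`, `E Σ⟨A_a e,F_a e⟩ = 0`, `Σ|A_a e|² = q|e|²` -/
def StmtLin : Prop := ∀ (P : F1) (n : ℕ) (φ V : E n → ℝ) (a b M κ : ℝ)
  (U : E n → Matrix (Fin n) (Fin n) ℝ) (s : E n → Fin n → ℝ), Dat P φ V a b M κ U s →
  (∀ i j, Ex Q (fun z => GG U s z i j) = 0) →
  ∀ (e : Fin n → ℝ) (q : ℝ), (KK U s).mulVec e = q • e →
  Ex Q (fun z => ∑ i, s z i * xx U e z i ^ 2) = 0 ∧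
  Ex Q (fun z => ∑ i, xx U e z i * col U (FF U s) e z i) = 0 ∧
  Ex Q (fun z => ∑ i, xx U e z i * col U (ZZ U s) e z i) = 0 ∧
  Ex Q (fun z => ∑ i, s z i * xx U e z i * col U (FF U s) e z i)
    = Ex Q (fun z => ∑ i, col U (FF U s) e z i ^ 2) ∧
  Ex Q (fun z => ∑ k, ∑ i, xx U ((AA U s k).mulVec e) z i * col U (Fa U s k) e z i) = 0 ∧
  ∀ z, ∑ k, ∑ i, xx U ((AA U s k).mulVec e) z i ^ 2 = q * ∑ i, e i ^ 2

/-- **SP-GAP** second gap and the form Cauchy-Schwarz for `F e` (position `E G = 0`) -/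
def StmtGap : Prop := ∀ (P : F1) (n : ℕ) (φ V : E n → ℝ) (a b M κ : ℝ)
  (U : E n → Matrix (Fin n) (Fin n) ℝ) (s : E n → Fin n → ℝ), Dat P φ V a b M κ U s →
  (∀ i j, Ex Q (fun z => GG U s z i j) = 0) → ∀ e : Fin n → ℝ,
  2 * Ex Q (fun z => ∑ i, col U (FF U s) e z i ^ 2)
      ≤ Ex Q (fun z => ∑ k, ∑ i, col U (Fa U s k) e z i ^ 2) ∧
  ∀ w : Fin n → E n → ℝ, BLip w →
    (Ex Q (fun z => ∑ k, ∑ i, col U (Fa U s k) e z i * fr U (fun j => pd k (w j)) z i)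
      - Ex Q (fun z => ∑ i, col U (FF U s) e z i * fr U w z i)) ^ 2
    ≤ (Ex Q (fun z => ∑ k, ∑ i, col U (Fa U s k) e z i ^ 2)
        - Ex Q (fun z => ∑ i, col U (FF U s) e z i ^ 2))
      * Ex Q (fun z => ∑ k, ∑ i, pd k (w i) z ^ 2)

/-- **SP-C4** pointwise identity (Σ_a ⟨A_a e, p(G) A_a e⟩) -/
def StmtC4 : Prop := ∀ (n : ℕ) (U : E n → Matrix (Fin n) (Fin n) ℝ) (s : E n → Fin n → ℝ),
  (∀ z, U z * (U z).transpose = 1) → ∀ (p : ℝ → ℝ) (e : Fin n → ℝ) (q : ℝ),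
  (∀ k, (AA U s k).IsSymm) → (∀ k z, (pdM k (GG U s) z).IsSymm) → (KK U s).mulVec e = q • e → ∀ z,
  ∑ k, ∑ i, p (s z i) * xx U ((AA U s k).mulVec e) z i ^ 2
    = ∑ i, p (s z i) * xx U e z i * (q * xx U e z i + col U (ZZ U s) e z i)
      - ∑ k, ∑ i, p (s z i) * xx U ((AA U s k).mulVec e) z i * col U (Fa U s k) e z i
      + ∑ k, ∑ i, xx U e z i * ∑ j, (p (s z j) - p (s z i)) * uu U s k z i j
          * xx U ((AA U s k).mulVec e) z j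

/-- **SP-UPS** the formula of `Υ_e` (consequence of ST with `p = r`, `p = r (1 - r')` and C4) -/
def StmtUps : Prop := ∀ (P : F1) (n : ℕ) (φ V : E n → ℝ) (a b M κ : ℝ)
  (U : E n → Matrix (Fin n) (Fin n) ℝ) (s : E n → Fin n → ℝ), Dat P φ V a b M κ U s →
  ∀ (e : Fin n → ℝ) (q : ℝ), (KK U s).mulVec e = q • e → ∑ i, e i ^ 2 = 1 →
  Ups P U s e = 1
    + (q - 1) * Ex Q (fun z => ∑ i, (P.r' (s z i) + P.r (s z i) * P.r'' (s z i)) * xx U e z i ^ 2)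
    + Ex Q (fun z => ∑ i, (P.r' (s z i) + P.r (s z i) * P.r'' (s z i)) * xx U e z i
        * col U (ZZ U s) e z i)
    + Ex Q (fun z => ∑ i, (P.r (s z i) + P.r (s z i) * P.r' (s z i)) * xx U e z i
        * col U (FF U s) e z i)
    - Ex Q (fun z => ∑ k, ∑ i, P.r' (s z i) ^ 2 * xx U ((AA U s k).mulVec e) z i
        * col U (Fa U s k) e z i)
    - Ex Q (fun z => ∑ k, ∑ i, be P U s e k z i ^ 2)
    + Ex Q (fun z => ∑ k, ∑ i, ∑ j, xx U e z i * uu U s k z i j * xx U ((AA U s k).mulVec e) z j *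
        ((dd P.r P.r' (s z i) (s z j) - P.r' (s z i))
          + P.r (s z i) * (dd P.r' P.r'' (s z i) (s z j) - P.r'' (s z i))
          - P.r' (s z j) * (dd P.r P.r' (s z i) (s z j) - P.r' (s z j))))

/-- **SP-BES** Bessel budgets over an orthonormal eigenbasis of `K`: for a family of matrices `B_a`
`Σ_p (1/q_p) |Σ_a B_a A_a e_p|² ≤ Σ_a |B_a|²` (terms with `q_p = 0` vanish) -/
def StmtBes : Prop := ∀ (n : ℕ) (A B : Fin n → Matrix (Fin n) (Fin n) ℝ), (∀ a, (A a).IsSymm) →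
  ∀ (e : Fin n → Fin n → ℝ) (q : Fin n → ℝ),
  (∀ p p', ∑ i, e p i * e p' i = if p = p' then 1 else 0) →
  (∀ p, (∑ a, A a * A a).mulVec (e p) = q p • e p) →
  (∀ p, 0 ≤ q p) ∧ (∀ p, q p = 0 → ∀ a, (A a).mulVec (e p) = 0) ∧
  ∑ p, (q p)⁻¹ * ∑ i, (∑ a, (B a).mulVec ((A a).mulVec (e p)) i) ^ 2 ≤ ∑ a, ∑ i, ∑ j, B a i j ^ 2

/-- **SP-HAD** Hadamard in an orthonormal basis, in the linearised form -/
def StmtHad : Prop := ∀ (n : ℕ) (C : Matrix (Fin n) (Fin n) ℝ), C.PosDef →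
  ∀ e : Fin n → Fin n → ℝ, (∀ p p', ∑ i, e p i * e p' i = if p = p' then 1 else 0) →
  ∀ c : Fin n → ℝ, (∀ p, 0 < c p) →
    Real.log C.det ≤ ∑ p, (Real.log (c p) + (∑ i, ∑ j, e p i * C i j * e p j) / c p - 1)

/-- **SP-COVQ** `⟨e, Cov e⟩ = Var ⟨e,∇φ⟩` and positivity (in `S/H151/Main.lean`) -/
def StmtCovQ : Prop := ∀ (n : ℕ) (φ V : E n → ℝ) (c C a b M κ : ℝ), Reg V c C → BP φ V a b M κ →
  (covV V).PosDef ∧ ∀ e : Fin n → ℝ,
    ∑ i, ∑ j, e i * covV V i j * e j = Ex Q (fun z => fe φ e z ^ 2) - (Ex Q (fe φ e)) ^ 2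

end Vale.Agent.P254.SP
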