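import Vale.Agent.P254.S.Iface

/-!
P254, line (SP_0): the SHARP inequality by the Brenier map of the standard Gaussian and the spectral
weight `t(G)²`, `G = (t')⁻¹(D²φ)`.  Frozen analytic interface (helper937), on top of `S/Iface.lean`.

One-variable functions (`F1`): `t s = -log (1 - Φ s)`, `L = t'` (hazard rate), `g = L⁻¹`, `r = t / L`.
-/

open MeasureTheory
open scoped Topology

namespace Vale.Agent.P254.SP

open Vale.Agent.P227.M Vale.Agent.P254.S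

/-- the one-variable functions with the properties used by the analytic blocks -/
structure F1 where
  (t L L' g r r' r'' : ℝ → ℝ)
  ht : ∀ s, HasDerivAt t (L s) s
  hL : ∀ s, HasDerivAt L (L' s) s
  L_pos : ∀ s, 0 < L s
  L'_pos : ∀ s, 0 < L' s
  L'_cont : Continuous L'
  t_pos : ∀ s, 0 < t s
  g_L : ∀ s, g (L s) = s
  L_g : ∀ m, 0 < m → L (g m) = m
  log_L : ∀ s, Real.log (L s) = t s - s ^ 2 / 2 - Real.log (2 * Real.pi) / 2
  r_eq : ∀ s, r s * L s = t s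
  hr : ∀ s, HasDerivAt r (r' s) s
  hr' : ∀ s, HasDerivAt r' (r'' s) s
  r''_cont : Continuous r''
  model1 : ∀ s, s * r s - r' s = t s - 1
  model2 : ∀ s, L s = r s + s * r' s - r'' s
  r'_pos : ∀ s, 0 < r' s
  r'_lt : ∀ s, r' s < 1 / 2
  r''_pos : ∀ s, 0 < r'' s
  /-- `q (m) = m r(g m)²` is convex on `(0,∞)` -/
  q_convex : ConvexOn ℝ (Set.Ioi 0) (fun m => m * r (g m) ^ 2)
  /-- `L` is convex, hence `g` is concave -/
  g_concave : ConcaveOn ℝ (Set.Ioi 0) g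
  /-- Mills' ratio `1 / L` is convex, hence `s ↦ g (1/s)` is convex -/
  g_inv_convex : ConvexOn ℝ (Set.Ioi 0) (fun s => g (1 / s))

/-- divided difference (as in `S/H130/Alg.lean`) -/
noncomputable def dd (F F' : ℝ → ℝ) (x y : ℝ) : ℝ := if x = y then F' x else (F x - F y) / (x - y)

/-- `1 + σ(x,y) = t[x,y]² / (L x L y)`, the weight of the energy of `G` (slack of (**) included) -/
noncomputable def wσ (P : F1) (x y : ℝ) : ℝ := dd P.t P.L x y ^ 2 / (P.L x * P.L y)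

/-- spectral frame of `M = D²φ` in the variable `G`: `D²φ = U diag (L s) Uᵀ`, `G = U diag s Uᵀ` -/
structure Fr (P : F1) {n : ℕ} (φ : E n → ℝ) (U : E n → Matrix (Fin n) (Fin n) ℝ)
    (s : E n → Fin n → ℝ) : Prop where
  orth : ∀ z, U z * (U z).transpose = 1
  dec : ∀ z, hess φ z = fc U s P.L z

/-- the matrix field `G = (t')⁻¹ (D²φ)` -/
noncomputable def GG {n : ℕ} (U : E n → Matrix (Fin n) (Fin n) ℝ) (s : E n → Fin n → ℝ) (z : E n) :
    Matrix (Fin n) (Fin n) ℝ := fc U s (fun x => x) z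

/-- `∂_k` of a matrix field, entrywise -/
noncomputable def pdM {n : ℕ} (k : Fin n) (A : E n → Matrix (Fin n) (Fin n) ℝ) (z : E n) :
    Matrix (Fin n) (Fin n) ℝ := fun i j => pd k (fun y => A y i j) z

/-- `∂_k G` in the eigenframe: `Uᵀ (∂_k G) U` -/
noncomputable def uu {n : ℕ} (U : E n → Matrix (Fin n) (Fin n) ℝ) (s : E n → Fin n → ℝ)
    (k : Fin n) (z : E n) : Matrix (Fin n) (Fin n) ℝ :=
  (U z).transpose * pdM k (GG U s) z * U z

/-- **SP-MA** the log-concavity input with the spectral weight `t(G)²` and the full slack: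
`E Σ_k Σ_ij (1+σ) (∂_k G)_ij² ≤ E tr r(G)² + E |D r(G)|²` -/
def StmtMA : Prop := ∀ (P : F1) (n : ℕ) (φ V : E n → ℝ) (c C a b M κ : ℝ), Reg V c C →
  BP φ V a b M κ → ∀ (U : E n → Matrix (Fin n) (Fin n) ℝ) (s : E n → Fin n → ℝ), Fr P φ U s →
  Ex Q (fun z => ∑ k, ∑ i, ∑ j, wσ P (s z i) (s z j) * uu U s k z i j ^ 2)
    ≤ Ex Q (fun z => ∑ i, P.r (s z i) ^ 2)
      + Ex Q (fun z => ∑ k, ∑ i, ∑ j, (dd P.r P.r' (s z i) (s z j) * uu U s k z i j) ^ 2)

/-- **SP-ENT** `2 h = n + E tr (2 t(G) - G²)` -/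
def StmtEnt2 : Prop := ∀ (P : F1) (n : ℕ) (φ V : E n → ℝ) (a b M κ : ℝ), BP φ V a b M κ →
  ∀ (U : E n → Matrix (Fin n) (Fin n) ℝ) (s : E n → Fin n → ℝ), Fr P φ U s →
  2 * entV V = n + Ex Q (fun z => ∑ i, (2 * P.t (s z i) - s z i ^ 2))

/-- **SP-COV** dual bound for the variance: `∇f = X + Σ_a ∂_a^* Y_a`, `∂_a^* Y = z_a Y - ∂_a Y`,
`Y_a` any Lipschitz vector fields, gives `Var f ≤ E|X|² + Σ_a E|Y_a|²` -/
def StmtCov : Prop := ∀ (n : ℕ) (f : E n → ℝ) (K : NNReal), ContDiff ℝ 1 f →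
  (∀ i, LipschitzWith K (pd i f)) → ∀ Y : Fin n → Fin n → E n → ℝ, (∀ a i, LipschitzWith K (Y a i)) →
  Ex Q (fun z => f z ^ 2) - (Ex Q f) ^ 2
    ≤ Ex Q (fun z => ∑ i, (pd i f z - ∑ a, (z a * Y a i z - pd a (Y a i) z)) ^ 2)
      + Ex Q (fun z => ∑ a, ∑ i, Y a i z ^ 2)

/-- **SP-HERM** second order Poincaré inequality for Lipschitz functions -/
def StmtHermL : Prop := ∀ (n : ℕ) (f : E n → ℝ) (K : NNReal), LipschitzWith K f →
  Ex Q (fun z => f z ^ 2) - (Ex Q f) ^ 2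
    ≤ 1 / 2 * ∑ i, (Ex Q (fun z => pd i f z)) ^ 2 + 1 / 2 * Ex Q (fun z => ∑ i, (pd i f z) ^ 2)

/-- **SP-IBP** Gaussian integration by parts for products of Lipschitz functions -/
def StmtIBP2 : Prop := ∀ (n : ℕ) (f h : E n → ℝ) (K : NNReal), LipschitzWith K f → LipschitzWith K h →
  ∀ i : Fin n, Ex Q (fun z => z i * (f z * h z)) = Ex Q (fun z => pd i f z * h z + f z * pd i h z)

/-- **SP-EXU** existence with uniform constants (for the compactness / continuity in the gauge) -/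
def StmtEXU : Prop := ∀ (n : ℕ) (c₀ C₀ B : ℝ), 0 < c₀ → ∃ a b M : ℝ, 0 < a ∧
  ∀ V : E n → ℝ, Reg V c₀ C₀ → (∀ x, ‖iteratedFDeriv ℝ 3 V x‖ ≤ B) →
    ∃ (φ : E n → ℝ) (κ : ℝ), BP φ V a b M κ

/-- **SP-GAUGE** (position) after a linear change of the target `E G = 0` -/
def StmtPos : Prop := ∀ (P : F1) (n : ℕ) (V : E n → ℝ) (c C : ℝ), Reg V c C →
  ∃ (A : Matrix (Fin n) (Fin n) ℝ) (c' C' : ℝ), A.det ≠ 0 ∧ Reg (fun x => V (lin A x)) c' C' ∧
    ∃ (φ : E n → ℝ) (a b M κ : ℝ) (U : E n → Matrix (Fin n) (Fin n) ℝ) (s : E n → Fin n → ℝ),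
      BP φ (fun x => V (lin A x)) a b M κ ∧ Fr P φ U s ∧
      ∀ i j, Ex Q (fun z => GG U s z i j) = 0

/-- **SP-FIN** the functional inequality in Gauss space (bookkeeping of the constants) -/
def StmtFin (P : F1) : Prop := ∀ (n : ℕ) (φ V : E n → ℝ) (c C a b M κ : ℝ), Reg V c C →
  BP φ V a b M κ → ∀ (U : E n → Matrix (Fin n) (Fin n) ℝ) (s : E n → Fin n → ℝ), Fr P φ U s →
  (∀ i j, Ex Q (fun z => GG U s z i j) = 0) →
    2 * (n : ℝ) + Real.log (covV V).det ≤ 2 * entV V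

/-- the sharp inequality for regular potentials -/
def StmtSharp : Prop := StmtS 0

end Vale.Agent.P254.SP
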